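import Crest.Agent.R331.Fock.Ent
import Crest.Agent.R331.Out.Kernel
import Crest.Agent.R332.Cont

/-!
# Row 331, block Fock: continuity of the entropy under an energy bound
-/

set_option autoImplicit false
set_option linter.unusedSectionVars false

noncomputable section

namespace Crest.Agent.R331.Fock

open Crest.Quantum Crest.Agent.Lib.QEnt Matrix Crest.MathPhysics.Bosonic Crest.Agent.R331.Out Filter Topology
open scoped InnerProductSpace ComplexOrder

section fin
variable {J : Type} [Fintype J] [DecidableEq J]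

theorem vn_eq_tr {A : Matrix J J ℂ} (hA : A.IsHermitian) :
    vnEntropy A = (cfc Real.negMulLog A).trace.re := by
  have h : IsDiag (cfc Real.negMulLog A) (hA.eigenvectorUnitary : Matrix J J ℂ)
      fun i => Real.negMulLog (hA.eigenvalues i) := by
    refine ⟨(isDiag_eigenvalues hA).uni, ?_⟩
    rw [hA.cfc_eq, Matrix.IsHermitian.cfc, Unitary.conjStarAlgAut_apply]
    simp [star_eq_conjTranspose, Function.comp_def]
  rw [h.trace_re, vn_eq (isDiag_eigenvalues hA)]

theorem vn_tendsto {ι : Type*} {F : Filter ι} {A : ι → Matrix J J ℂ} {B : Matrix J J ℂ}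
    (hA : ∀ᶠ i in F, (A i).IsHermitian) (hB : B.IsHermitian)
    (h : ∀ k l, Tendsto (fun i => A i k l) F (𝓝 (B k l))) :
    Tendsto (fun i => vnEntropy (A i)) F (𝓝 (vnEntropy B)) := by
  have h1 : ContinuousOn (fun X : Matrix J J ℂ => cfc Real.negMulLog X) {X | X.IsHermitian} :=
    Crest.Agent.R332.continuousOn_cfc_aux (A := fun X => X) isOpen_univ
      Real.continuous_negMulLog.continuousOn continuousOn_id (fun _ hx => hx) fun _ _ => Set.subset_univ _
  have h2 : Tendsto A F (𝓝[{X | X.IsHermitian}] B) :=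
    tendsto_nhdsWithin_iff.2 ⟨tendsto_pi_nhds.2 fun k => tendsto_pi_nhds.2 fun l => h k l, hA⟩
  have h3 : Continuous fun X : Matrix J J ℂ => X.trace.re :=
    Complex.continuous_re.comp (Continuous.matrix_trace continuous_id)
  have h4 := (h3.tendsto _).comp ((h1 B hB).tendsto.comp h2)
  rw [vn_eq_tr hB]
  exact h4.congr' (hA.mono fun i hi => (vn_eq_tr hi).symm)

end fin

variable {n : ℕ}

/-- the number basis -/
def fb (n : ℕ) : HilbertBasis (Occ n) ℂ (Fock n) := HilbertBasis.ofRepr (LinearIsometryEquiv.refl ℂ _)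

theorem fb_apply (k : Occ n) : fb n k = ket k := by
  classical
  rw [← HilbertBasis.repr_symm_single]
  simp only [fb, ket]
  congr 1

theorem q_fb (T : Fock n →L[ℂ] Fock n) (k : Occ n) : q T (fb n k) = (entry T k k).re := by
  rw [fb_apply]; rfl

theorem mat_fb (L : ℕ) (ρ : FockState n) : mat (fb n) (emb : Box n L → Occ n) ρ.op = Out.comp L ρ := by
  ext k l
  simp only [mat, Out.comp, of_apply, fb_apply, entry]

theorem hasEntropy_iff (ρ : FockState n) (s : ℝ) :
    HasEntropy ρ s ↔ HasSum (fun k => q (Ph ρ.op) (fb n k)) s := by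
  have h : cfc (fun z : ℂ => (-(z.re * Real.log z.re) : ℂ)) ρ.op = Ph ρ.op := by
    rw [Ph, cfc_real_eq_complex _ ρ.pos.isSelfAdjoint]
    congr 1
    funext z
    simp [Real.negMulLog]
  simp only [HasEntropy, h, q_fb]

theorem tr_one (ρ : FockState n) : HasSum (fun k => q ρ.op (fb n k)) 1 := by
  simpa only [q_fb] using ρ.traceOne

/-- total photon number -/
def wt (k : Occ n) : ℝ := ((∑ j, k j : ℕ) : ℝ)

theorem wt_nonneg (k : Occ n) : 0 ≤ wt k := Nat.cast_nonneg _

theorem Phi_nonneg (ρ : FockState n) (k : Occ n) : 0 ≤ q (Ph ρ.op) (fb n k) :=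
  Ph_nonneg ρ.pos (fb n) (tr_one ρ) _

theorem r_nonneg (ρ : FockState n) (k : Occ n) : 0 ≤ (entry ρ.op k k).re := (kpsd_entry ρ).diag_nonneg k

theorem Phi_le (ρ : FockState n) (c : ℝ) (k : Occ n) :
    q (Ph ρ.op) (fb n k) ≤ Real.exp (-c) + c * (entry ρ.op k k).re := by
  have h := Ph_up ρ.pos (Real.exp_pos (-c)) (fb n k)
  rw [(fb n).orthonormal.1 k, Real.log_exp, q_fb ρ.op] at h
  have := r_nonneg ρ k
  nlinarith

theorem summable_exp (n : ℕ) {c : ℝ} (hc : 0 < c) : Summable fun k : Occ n => Real.exp (-(c * wt k)) := by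
  induction n with
  | zero => exact Summable.of_finite
  | succ n ih =>
    have h1 : Summable fun m : ℕ => Real.exp (-(c * m)) := by
      have := Real.summable_exp_nat_mul_iff.2 (neg_lt_zero.2 hc)
      simpa [mul_comm] using this
    have h2 := summable_mul_of_summable_norm (f := fun m : ℕ => Real.exp (-(c * m)))
      (g := fun k : Occ n => Real.exp (-(c * wt k))) h1.norm ih.norm
    rw [← (Fin.consEquiv fun _ : Fin (n + 1) => ℕ).summable_iff]
    refine h2.congr fun x => ?_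
    simp only [Function.comp, Fin.consEquiv, wt, Equiv.coe_fn_mk, Fin.sum_univ_succ, Fin.cons_zero, Fin.cons_succ]
    rw [← Real.exp_add]
    push_cast
    ring_nf

theorem exists_ent (ρ : FockState n) (h : FiniteEnergy ρ) : ∃ s, HasEntropy ρ s := by
  refine ⟨_, (hasEntropy_iff ρ _).2 (Summable.hasSum ?_)⟩
  refine Summable.of_nonneg_of_le (Phi_nonneg ρ) (fun k => Phi_le ρ (1 * wt k) k) ?_
  refine (summable_exp n one_pos).add ?_
  simp only [one_mul]
  exact h

theorem ent_nonneg {ρ : FockState n} {s : ℝ} (h : HasEntropy ρ s) : 0 ≤ s :=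
  ((hasEntropy_iff ρ s).1 h).nonneg (Phi_nonneg ρ)

/-- the box as a finite set of occupations -/
def bx (n L : ℕ) : Finset (Occ n) := Finset.univ.image (emb : Box n L → Occ n)

theorem sum_bx (L : ℕ) (f : Occ n → ℝ) : ∑ k ∈ bx n L, f k = ∑ k : Box n L, f (emb k) :=
  Finset.sum_image emb_injective.injOn

theorem mem_bx {L : ℕ} {k : Occ n} : k ∈ bx n L ↔ ∀ j, k j ≤ L := by
  constructor
  · intro h
    obtain ⟨k', -, rfl⟩ := Finset.mem_image.1 h
    exact emb_le k'
  · exact fun h => Finset.mem_image.2 ⟨toBox L k h, Finset.mem_univ _, rfl⟩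

theorem tendsto_bx (n : ℕ) : Tendsto (bx n) atTop atTop := by
  refine tendsto_atTop_finset_of_monotone (fun L L' h k hk => ?_) fun k => ⟨∑ j, k j, ?_⟩
  · exact mem_bx.2 fun j => (mem_bx.1 hk j).trans h
  · exact mem_bx.2 fun j => Finset.single_le_sum (f := k) (fun _ _ => Nat.zero_le _) (Finset.mem_univ j)

theorem wt_of_not {L : ℕ} {k : Occ n} (h : k ∉ bx n L) : (L : ℝ) ≤ wt k := by
  rw [mem_bx] at h
  push Not at h
  obtain ⟨j, hj⟩ := h
  exact Nat.cast_le.2 (hj.le.trans (Finset.single_le_sum (f := k) (fun _ _ => Nat.zero_le _) (Finset.mem_univ j)))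

/-- comparison of tails -/
theorem tail_le {ι : Type*} {f g : ι → ℝ} {a b : ℝ} (hf : HasSum f a) (hg : HasSum g b) (s : Finset ι)
    (h : ∀ k, k ∉ s → f k ≤ g k) : a - ∑ k ∈ s, f k ≤ b - ∑ k ∈ s, g k := by
  have h1 := sum_le_hasSum s (fun k hk => sub_nonneg.2 (h k hk)) (hg.sub hf)
  rw [Finset.sum_sub_distrib] at h1
  linarith

/-- uniform approximation of the entropy by the entropy of a compression -/
theorem approx (n : ℕ) (R : ℝ) {ε : ℝ} (hε : 0 < ε) : ∃ L : ℕ, ∀ ρ : FockState n, ∀ E ≤ R,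
    HasSum (fun k => wt k * (entry ρ.op k k).re) E → ∀ s, HasEntropy ρ s →
      |s - vnEntropy (Out.comp L ρ)| ≤ ε := by
  set c := ε / 2 / (|R| + 1) with hc
  have hc0 : 0 < c := by positivity
  have h1 := (summable_exp n hc0).hasSum
  have h2 : ∀ᶠ L in atTop, ∑' k : Occ n, Real.exp (-(c * wt k)) - ε / 2 ≤
      ∑ k ∈ bx n L, Real.exp (-(c * wt k)) :=
    (h1.comp (tendsto_bx n)).eventually (eventually_ge_nhds (by linarith))
  have h3 : ∀ᶠ L : ℕ in atTop, |R| / ε + 1 ≤ L := tendsto_natCast_atTop_atTop.eventually (eventually_ge_atTop _)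
  obtain ⟨L, hL1, hL2⟩ := (h2.and h3).exists
  refine ⟨L, fun ρ E hE hsum s hs => ?_⟩
  rw [hasEntropy_iff] at hs
  have a1 := le_vn ρ.pos (fb n) (emb_injective (n := n) (M := L))
  have a2 := vn_le ρ.pos (fb n) (tr_one ρ) (emb : Box n L → Occ n)
  rw [mat_fb] at a1 a2
  rw [← sum_bx L fun k => q (Ph ρ.op) (fb n k)] at a1 a2
  rw [← sum_bx L fun k => q ρ.op (fb n k)] at a2
  have a3 := sum_le_hasSum (bx n L) (fun k _ => Phi_nonneg ρ k) hs
  have a4 := tail_le hs (h1.add (hsum.mul_left c)) (bx n L) fun k _ => by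
    simpa only [mul_assoc] using Phi_le ρ (c * wt k) k
  have a0 : 0 ≤ ∑ k ∈ bx n L, wt k * (entry ρ.op k k).re :=
    Finset.sum_nonneg fun k _ => mul_nonneg (wt_nonneg k) (r_nonneg ρ k)
  have a5 := tail_le ((tr_one ρ).mul_left (L : ℝ)) hsum (bx n L) fun k hk => by
    rw [q_fb]
    exact mul_le_mul_of_nonneg_right (wt_of_not hk) (r_nonneg ρ k)
  rw [Finset.sum_add_distrib, ← Finset.mul_sum] at a4
  rw [← Finset.mul_sum] at a5
  have hR : E ≤ |R| := hE.trans (le_abs_self R)
  have a6 : c * (|R| + 1) = ε / 2 := by rw [hc]; field_simp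
  have a7 : c * E ≤ ε / 2 := by nlinarith
  have a8 : |R| + ε ≤ L * ε := by
    have := mul_le_mul_of_nonneg_right hL2 hε.le
    rwa [add_mul, div_mul_cancel₀ _ hε.ne', one_mul] at this
  have hL0 : (0 : ℝ) < L := lt_of_lt_of_le (by positivity) hL2
  have a9 : 1 - ∑ k ∈ bx n L, q ρ.op (fb n k) ≤ ε := by
    refine le_of_mul_le_mul_left ?_ hL0
    nlinarith
  have a10 := mul_nonneg hc0.le a0
  rw [abs_le]
  constructor <;> linarith

/-- a density matrix on a box is a Fock state with the same entropy -/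
theorem lift {M : ℕ} {σ : Matrix (Box n M) (Box n M) ℂ} (hσ : IsDensity σ) :
    ∃ τ : FockState n, (∀ k l, entry τ.op k l = ext σ k l) ∧ HasEntropy τ (vnEntropy σ) := by
  have h0 : ∑ k, (σ k k).re = 1 := by
    have := congrArg Complex.re hσ.2
    simpa [trace] using this
  have h1 : HasSum (fun k => (ext σ k k).re) 1 := by
    simpa [h0] using kernelc_sum σ fun _ => 1
  obtain ⟨τ, hτ⟩ := exists_state_of_kernel (kpsd_ext hσ.1) h1
  refine ⟨τ, hτ, (hasEntropy_iff _ _).2 ?_⟩
  have e : Out.comp M τ = σ := by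
    ext k l
    simp only [Out.comp, of_apply, hτ, ext_emb]
  have a1 := le_vn τ.pos (fb n) (emb_injective (n := n) (M := M))
  have a2 := vn_le τ.pos (fb n) (tr_one τ) (emb : Box n M → Occ n)
  rw [mat_fb, e] at a1 a2
  simp only [q_fb τ.op, hτ, ext_emb, h0] at a2
  have a3 : vnEntropy σ = ∑ k ∈ bx n M, q (Ph τ.op) (fb n k) := by
    rw [sum_bx]
    linarith
  rw [a3]
  refine hasSum_sum_of_ne_finset_zero fun k hk => le_antisymm ?_ (Phi_nonneg τ k)
  refine le_of_forall_pos_le_add fun μ hμ => ?_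
  have := Phi_le τ (-Real.log μ) k
  rw [hτ, ext_of_not σ fun h => hk (mem_bx.2 h.1), neg_neg, Real.exp_log hμ] at this
  simpa using this

/-- continuity of the entropy along entrywise convergent sequences of bounded energy -/
theorem entropy_cont {ρ : FockState n} (hρ : FiniteEnergy ρ) {s : ℝ} (hs : HasEntropy ρ s) (M : ℕ → ℕ)
    (σ : ∀ K, Matrix (Box n (M K)) (Box n (M K)) ℂ) (R : ℝ)
    (hσ : ∀ᶠ K in atTop, IsDensity (σ K) ∧ energy (σ K) ≤ R)
    (hc : ∀ k l, Tendsto (fun K => ext (σ K) k l) atTop (𝓝 (entry ρ.op k l))) :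
    Tendsto (fun K => vnEntropy (σ K)) atTop (𝓝 s) := by
  rw [Metric.tendsto_nhds]
  intro ε hε
  obtain ⟨E, hE⟩ := hρ
  obtain ⟨L, hL⟩ := approx n (max R E) (ε := ε / 4) (by positivity)
  have h1 := hL ρ E (le_max_right _ _) hE s hs
  have h2 := vn_tendsto (F := atTop) (A := fun K => Matrix.of fun k l : Box n L => ext (σ K) (emb k) (emb l))
    (B := Out.comp L ρ) (hσ.mono fun K hK => ((kpsd_ext hK.1.1).posSemidef L).1)
    ((kpsd_entry ρ).posSemidef L).1 fun k l => hc _ _
  filter_upwards [hσ, Metric.tendsto_nhds.1 h2 (ε / 4) (by positivity)] with K hK h3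
  obtain ⟨τ, hτ, hτ'⟩ := lift hK.1
  have h4 := hL τ (energy (σ K)) (hK.2.trans (le_max_left _ _))
    (by simp only [hτ]; exact kernelc_sum (σ K) wt) _ hτ'
  have e : Out.comp L τ = Matrix.of fun k l : Box n L => ext (σ K) (emb k) (emb l) := by
    ext k l
    simp only [Out.comp, of_apply, hτ]
  rw [e] at h4
  rw [Real.dist_eq, abs_lt] at h3 ⊢
  rw [abs_le] at h1 h4
  constructor <;> linarith [h1.1, h1.2, h3.1, h3.2, h4.1, h4.2]

end Crest.Agent.R331.Fock
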