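import Crest.Agent.R331.FD
import Crest.Agent.Lib.QEnt.Entropy

/-!
# Row 331, block Fock: the entropy of a compression of a trace-one positive operator
-/

set_option autoImplicit false
set_option linter.unusedSectionVars false

noncomputable section

namespace Crest.Agent.R331.Fock

open Crest.Quantum Crest.Agent.Lib.QEnt Matrix
open scoped InnerProductSpace ComplexOrder

variable {H : Type*} [NormedAddCommGroup H] [InnerProductSpace ℂ H] [CompleteSpace H] {I J : Type*}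
  {ρ : H →L[ℂ] H}

/-- `-ρ log ρ` -/
def Ph (ρ : H →L[ℂ] H) : H →L[ℂ] H := cfc Real.negMulLog ρ

/-- the quadratic form -/
def q (T : H →L[ℂ] H) (v : H) : ℝ := (⟪v, T v⟫_ℂ).re

theorem q_nonneg {T : H →L[ℂ] H} (h : T.IsPositive) (v : H) : 0 ≤ q T v := h.re_inner_nonneg_right v

theorem q_mono {S T : H →L[ℂ] H} (h : S ≤ T) (v : H) : q S v ≤ q T v := by
  have := q_nonneg ((ContinuousLinearMap.le_def _ _).1 h) v
  simp only [q, ContinuousLinearMap.sub_apply, inner_sub_right, Complex.sub_re] at this ⊢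
  linarith

theorem exists_sq (hρ : ρ.IsPositive) :
    ∃ s : H →L[ℂ] H, (∀ x y, ⟪s x, y⟫_ℂ = ⟪x, s y⟫_ℂ) ∧ ∀ x, s (s x) = ρ x := by
  have h0 : 0 ≤ ρ := (ContinuousLinearMap.nonneg_iff_isPositive ρ).2 hρ
  have h1 : (CFC.sqrt ρ).IsPositive := (ContinuousLinearMap.nonneg_iff_isPositive _).1 (CFC.sqrt_nonneg ρ)
  refine ⟨CFC.sqrt ρ, fun x y => h1.isSymmetric x y, fun x => ?_⟩
  exact congrArg (fun T : H →L[ℂ] H => T x) (CFC.sqrt_mul_sqrt_self ρ h0)

theorem re_inner_self (v : H) : (⟪v, v⟫_ℂ).re = ‖v‖ ^ 2 := inner_self_eq_norm_sq (𝕜 := ℂ) v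

theorem spec_nonneg (hρ : ρ.IsPositive) : ∀ x ∈ spectrum ℝ ρ, 0 ≤ x :=
  fun _ hx => spectrum_nonneg_of_nonneg ((ContinuousLinearMap.nonneg_iff_isPositive ρ).2 hρ) hx

theorem q_smul (c : ℝ) (T : H →L[ℂ] H) (v : H) : q (c • T) v = c * q T v := by
  simp only [q, ContinuousLinearMap.smul_apply]
  rw [← Complex.coe_smul, inner_smul_right]
  simp

theorem q_sub (S T : H →L[ℂ] H) (v : H) : q (S - T) v = q S v - q T v := by
  simp [q, inner_sub_right]

theorem q_one (v : H) : q 1 v = ‖v‖ ^ 2 := re_inner_self v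

theorem negMulLog_le_tan {x μ : ℝ} (hx : 0 ≤ x) (hμ : 0 < μ) : Real.negMulLog x ≤ μ - (1 + Real.log μ) * x := by
  rcases hx.eq_or_lt with h | h
  · subst h
    simpa using hμ.le
  · have h1 := Real.log_le_sub_one_of_pos (div_pos hμ h)
    rw [Real.log_div hμ.ne' h.ne'] at h1
    have h2 := mul_le_mul_of_nonneg_left h1 hx
    have h3 : x * (μ / x - 1) = μ - x := by field_simp
    rw [Real.negMulLog]
    nlinarith

theorem le_negMulLog {x μ : ℝ} (hx : 0 ≤ x) (hμ : 0 < μ) :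
    (1 - Real.log μ) * x - μ⁻¹ * x ^ 2 ≤ Real.negMulLog x := by
  rcases hx.eq_or_lt with h | h
  · subst h
    simp
  · have h1 := Real.log_le_sub_one_of_pos (div_pos h hμ)
    rw [Real.log_div h.ne' hμ.ne'] at h1
    have h2 := mul_le_mul_of_nonneg_left h1 hx
    have h3 : x * (x / μ - 1) = μ⁻¹ * x ^ 2 - x := by field_simp
    rw [Real.negMulLog]
    nlinarith

theorem Ph_up (hρ : ρ.IsPositive) {μ : ℝ} (hμ : 0 < μ) (v : H) :
    q (Ph ρ) v ≤ μ * ‖v‖ ^ 2 - (1 + Real.log μ) * q ρ v := by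
  have hs : IsSelfAdjoint ρ := hρ.isSelfAdjoint
  have h1 : Ph ρ ≤ cfc (fun x : ℝ => μ - (1 + Real.log μ) * x) ρ :=
    cfc_mono (fun x hx => negMulLog_le_tan (spec_nonneg hρ x hx) hμ) Real.continuous_negMulLog.continuousOn
  rw [cfc_sub _ _ ρ, cfc_const μ ρ, cfc_const_mul_id _ ρ, Algebra.algebraMap_eq_smul_one] at h1
  have h2 := q_mono h1 v
  rwa [q_sub, q_smul, q_smul, q_one] at h2

theorem Ph_lo (hρ : ρ.IsPositive) {μ : ℝ} (hμ : 0 < μ) (v : H) :
    (1 - Real.log μ) * q ρ v - μ⁻¹ * ‖ρ v‖ ^ 2 ≤ q (Ph ρ) v := by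
  have hs : IsSelfAdjoint ρ := hρ.isSelfAdjoint
  have h1 : cfc (fun x : ℝ => (1 - Real.log μ) * x - μ⁻¹ * x ^ 2) ρ ≤ Ph ρ :=
    cfc_mono (fun x hx => le_negMulLog (spec_nonneg hρ x hx) hμ) (hg := Real.continuous_negMulLog.continuousOn)
  rw [cfc_sub _ _ ρ, cfc_const_mul_id _ ρ, cfc_const_mul _ _ ρ, cfc_pow_id ρ 2] at h1
  have h2 := q_mono h1 v
  rw [q_sub, q_smul, q_smul] at h2
  have h3 : q (ρ ^ 2) v = ‖ρ v‖ ^ 2 := by
    rw [← re_inner_self, q, pow_two, ContinuousLinearMap.mul_apply]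
    exact congrArg Complex.re (hρ.isSymmetric v (ρ v)).symm
  rwa [h3] at h2

theorem parseval (b : HilbertBasis I ℂ H) (v : H) : HasSum (fun k => ‖⟪b k, v⟫_ℂ‖ ^ 2) (‖v‖ ^ 2) := by
  have := Complex.hasSum_re (b.hasSum_inner_mul_inner v v)
  rw [re_inner_self] at this
  convert this using 2 with k
  rw [← inner_conj_symm v (b k), mul_comm, Complex.mul_conj, Complex.normSq_eq_norm_sq, Complex.ofReal_re]

theorem Ph_nonneg (hρ : ρ.IsPositive) (b : HilbertBasis I ℂ H) (h1 : HasSum (fun k => q ρ (b k)) 1) (v : H) :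
    0 ≤ q (Ph ρ) v := by
  have hs : IsSelfAdjoint ρ := hρ.isSelfAdjoint
  obtain ⟨s, s1, s2⟩ := exists_sq hρ
  have e : ∀ x, q ρ x = ‖s x‖ ^ 2 := fun x => by rw [← re_inner_self, q, s1, s2]
  have h2 : ρ ≤ 1 := by
    rw [ContinuousLinearMap.le_def, ContinuousLinearMap.isPositive_def']
    refine ⟨(IsSelfAdjoint.one _).sub hs, fun x => ?_⟩
    have h3 : q ρ x ≤ 1 * ‖x‖ ^ 2 := by
      rw [e]
      refine hasSum_le (fun k => ?_) (parseval b (s x)) (h1.mul_right _)
      rw [← s1, e, ← mul_pow]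
      exact pow_le_pow_left₀ (norm_nonneg _) (norm_inner_le_norm _ _) 2
    have h4 : (1 - ρ).reApplyInnerSelf x = ‖x‖ ^ 2 - q ρ x := by
      rw [ContinuousLinearMap.reApplyInnerSelf_apply, inner_re_symm, ← q_one, ← q_sub]
      rfl
    rw [h4]
    linarith
  refine q_nonneg ((ContinuousLinearMap.nonneg_iff_isPositive _).1 (cfc_nonneg fun x hx => ?_)) v
  exact Real.negMulLog_nonneg (spec_nonneg hρ x hx) ((CFC.le_one_iff ρ).1 h2 x hx)

/-- the matrix of the compression -/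
def mat (b : I → H) (e : J → I) (T : H →L[ℂ] H) : Matrix J J ℂ := Matrix.of fun i j => ⟪b (e i), T (b (e j))⟫_ℂ

variable [Fintype J] [DecidableEq J]

/-- the vector with coordinates the `i`-th column of `U` -/
def vec (b : I → H) (e : J → I) (U : Matrix J J ℂ) (i : J) : H := ∑ j, U j i • b (e j)

theorem inner_vec (b : I → H) (e : J → I) (U : Matrix J J ℂ) (T : H →L[ℂ] H) (i i' : J) :
    ⟪vec b e U i, T (vec b e U i')⟫_ℂ = (Uᴴ * mat b e T * U) i i' := by
  simp only [vec, map_sum, map_smul, sum_inner, inner_sum, inner_smul_left, inner_smul_right, Matrix.mul_apply,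
    conjTranspose_apply, mat, of_apply, Finset.sum_mul, Finset.mul_sum]
  refine Finset.sum_congr rfl fun j _ => Finset.sum_congr rfl fun k _ => ?_
  simp only [RCLike.star_def]
  ring

theorem q_vec (b : I → H) (e : J → I) (U : Matrix J J ℂ) (T : H →L[ℂ] H) (i : J) :
    q T (vec b e U i) = dg U (mat b e T) i := congrArg Complex.re (inner_vec b e U T i i)

theorem tr_mat (b : I → H) (e : J → I) (T : H →L[ℂ] H) : (mat b e T).trace.re = ∑ j, q T (b (e j)) := by
  simp [trace, mat, q]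

theorem mat_psd (hρ : ρ.IsPositive) (b : I → H) (e : J → I) : (mat b e ρ).PosSemidef := by
  obtain ⟨s, s1, s2⟩ := exists_sq hρ
  have : mat b e ρ = Matrix.gram ℂ fun j => s (b (e j)) := by
    ext i j
    simp [mat, gram, s1, s2]
  rw [this]
  exact Matrix.posSemidef_gram ℂ _

theorem norm_vec (b : HilbertBasis I ℂ H) {e : J → I} (he : Function.Injective e) {U : Matrix J J ℂ}
    (hU : Uᴴ * U = 1) (i : J) : ‖vec b e U i‖ ^ 2 = 1 := by
  classical
  have h1 : mat b e (1 : H →L[ℂ] H) = 1 := by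
    ext i j
    simp only [mat, of_apply, ContinuousLinearMap.one_apply, one_apply]
    rw [orthonormal_iff_ite.1 b.orthonormal]
    simp [he.eq_iff]
  have := inner_vec b e U 1 i i
  rw [h1, Matrix.mul_one, hU, one_apply_eq] at this
  rw [← re_inner_self]
  exact congrArg Complex.re this

theorem vn_eq {A U : Matrix J J ℂ} {l : J → ℝ} (h : IsDiag A U l) : vnEntropy A = ∑ i, Real.negMulLog (l i) := by
  rw [vnEntropy_eq h.isHermitian, h.N, ← Finset.sum_neg_distrib]
  exact Finset.sum_congr rfl fun i _ => by rw [Real.negMulLog, neg_mul]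

/-- lower bound for the entropy of the compression -/
theorem le_vn (hρ : ρ.IsPositive) (b : HilbertBasis I ℂ H) {e : J → I} (he : Function.Injective e) :
    ∑ j, q (Ph ρ) (b (e j)) ≤ vnEntropy (mat b e ρ) := by
  have hp := mat_psd hρ b e
  obtain ⟨U, l, h⟩ := exists_isDiag hp.isHermitian
  rw [vn_eq h, ← tr_mat, ← sum_dg h.uni]
  refine Finset.sum_le_sum fun i _ => ?_
  rw [← q_vec]
  have h1 := fun μ (hμ : 0 < μ) => Ph_up hρ hμ (vec b e U i)
  simp only [norm_vec b he h.uni, q_vec b e U ρ, h.dg_self] at h1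
  rcases (h.nonneg hp i).eq_or_lt with h0 | h0
  · rw [← h0] at h1 ⊢
    rw [Real.negMulLog_zero]
    exact le_of_forall_pos_le_add fun μ hμ => by simpa using h1 μ hμ
  · have := h1 _ h0
    rw [Real.negMulLog]
    linarith

/-- upper bound for the entropy of the compression -/
theorem vn_le (hρ : ρ.IsPositive) (b : HilbertBasis I ℂ H) (h1 : HasSum (fun k => q ρ (b k)) 1) (e : J → I) :
    vnEntropy (mat b e ρ) ≤ ∑ j, q (Ph ρ) (b (e j)) + (1 - ∑ j, q ρ (b (e j))) := by
  classical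
  have hp := mat_psd hρ b e
  obtain ⟨U, l, h⟩ := exists_isDiag hp.isHermitian
  obtain ⟨s, s1, s2⟩ := exists_sq hρ
  have hl := h.nonneg hp
  -- Bessel
  let f : {i // 0 < l i} → H := fun i => ((Real.sqrt (l i))⁻¹ : ℂ) • s (vec b e U i)
  have hf : Orthonormal ℂ f := by
    rw [orthonormal_iff_ite]
    intro i j
    simp only [f, inner_smul_left, inner_smul_right]
    rw [s1, s2, inner_vec, h.conj, diagonal_apply]
    by_cases hij : i = j
    · subst hij
      have h2 : (Real.sqrt (l i) : ℂ) ≠ 0 := by exact_mod_cast (Real.sqrt_pos.2 i.2).ne'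
      have h3 : (l i : ℂ) = (Real.sqrt (l i) : ℂ) * Real.sqrt (l i) := by
        exact_mod_cast (Real.mul_self_sqrt i.2.le).symm
      simp only [if_true, map_inv₀, Complex.conj_ofReal]
      rw [h3]
      field_simp
    · rw [if_neg hij, if_neg fun h' => hij (Subtype.ext h')]
      simp
  have hB : ∑ i : {i // 0 < l i}, (l i)⁻¹ * ‖ρ (vec b e U i)‖ ^ 2 ≤ 1 := by
    refine hasSum_le (fun k => ?_) (hasSum_sum fun (i : {i // 0 < l i}) (_ : i ∈ Finset.univ) =>
      (parseval b (ρ (vec b e U i))).mul_left (l i)⁻¹) h1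
    have h2 := hf.sum_inner_products_le (s (b k)) (s := Finset.univ)
    rw [q, ← s2, ← s1, re_inner_self]
    refine le_trans (le_of_eq (Finset.sum_congr rfl fun i _ => ?_)) h2
    simp only [f, inner_smul_left, norm_mul, mul_pow]
    rw [norm_inner_symm, s1, s2]
    congr 1
    · simp [Real.sq_sqrt i.2.le]
    · rw [← s2, s1, s1, s2]
  have h3 : ∀ i, Real.negMulLog (l i) ≤ dg U (mat b e (Ph ρ)) i - l i +
      if 0 < l i then (l i)⁻¹ * ‖ρ (vec b e U i)‖ ^ 2 else 0 := fun i => by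
    rw [← q_vec]
    split_ifs with h0
    · have := Ph_lo hρ h0 (vec b e U i)
      rw [q_vec b e U ρ, h.dg_self] at this
      rw [Real.negMulLog]
      linarith
    · have h4 : l i = 0 := le_antisymm (not_lt.1 h0) (hl i)
      simpa [h4] using Ph_nonneg hρ b h1 (vec b e U i)
  have h4 := Finset.sum_le_sum fun i (_ : i ∈ Finset.univ) => h3 i
  rw [Finset.sum_add_distrib, Finset.sum_sub_distrib, sum_dg h.uni, ← h.trace_re, tr_mat, tr_mat,
    ← Finset.sum_filter, Finset.sum_subtype (p := fun i => 0 < l i) (Finset.univ.filter fun i => 0 < l i) (by simp)] at h4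
  rw [vn_eq h]
  linarith

end Crest.Agent.R331.Fock
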