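import Crest.Agent.R331.Fock.Cont
import Crest.Agent.R331.Out.Main

/-!
# Row 331, block Fock: the entropy photon-number inequality from its finite-dimensional linear form
-/

set_option autoImplicit false

noncomputable section

namespace Crest.Agent.R331.Fock

open Crest.Quantum Crest.MathPhysics.Bosonic Crest.Agent.R331.Out Filter Topology
open scoped ComplexOrder

theorem continuous_gBose : Continuous gBose :=
  (Real.continuous_mul_log.comp (continuous_id.add continuous_const)).sub Real.continuous_mul_log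

theorem log_lb {u : ℝ} (hu : 0 < u) : 1 / (u + 1) ≤ Real.log (1 + 1 / u) := by
  have h := Real.one_sub_inv_le_log_of_pos (x := 1 + 1 / u) (by positivity)
  refine le_trans (le_of_eq ?_) h
  field_simp
  ring

theorem log_pos' {u : ℝ} (hu : 0 < u) : 0 < Real.log (1 + 1 / u) := lt_of_lt_of_le (by positivity) (log_lb hu)

theorem Tmp_pos {u : ℝ} (hu : 0 < u) : 0 < Tmp u := one_div_pos.2 (log_pos' hu)

theorem Tmp_le {u : ℝ} (hu : 0 < u) : Tmp u ≤ u + 1 := by
  have h := one_div_le_one_div_of_le (by positivity) (log_lb hu)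
  rwa [one_div_one_div] at h

theorem continuousAt_Tmp {u : ℝ} (hu : 0 < u) : ContinuousAt Tmp u := by
  refine continuousAt_const.div (ContinuousAt.log ?_ (by positivity)) (log_pos' hu).ne'
  exact continuousAt_const.add (continuousAt_const.div continuousAt_id hu.ne')

theorem continuous_bsAmp (k l p q : ℕ) : Continuous fun η => bsAmp η k l p q := by
  unfold bsAmp
  split_ifs
  · refine continuous_const.mul (continuous_finsetSum _ fun i _ => ?_)
    split_ifs
    · fun_prop
    · exact continuous_const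
  · exact continuous_const

theorem continuous_bsAmpN {n K : ℕ} (k l : Fin n → Fin (K + 1)) (p q : Fin n → Fin (2 * K + 1)) :
    Continuous fun η => (bsAmpN η k l p q : ℂ) :=
  Complex.continuous_ofReal.comp (continuous_finsetProd _ fun _ _ => continuous_bsAmp _ _ _ _)

theorem continuous_bsOutput {n K : ℕ} (ρA ρB : Matrix (Box n K) (Box n K) ℂ) (p p' : Box n (2 * K)) :
    Continuous fun η => bsOutput η ρA ρB p p' := by
  simp only [bsOutput, Matrix.of_apply]
  refine continuous_finsetSum _ fun q _ => continuous_finsetSum _ fun k _ => continuous_finsetSum _ fun l _ =>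
    continuous_finsetSum _ fun k' _ => continuous_finsetSum _ fun l' _ => ?_
  exact (((continuous_bsAmpN _ _ _ _).mul continuous_const).mul continuous_const).mul (continuous_bsAmpN _ _ _ _)

theorem mix_pos {η tA tB : ℝ} (hη : η ∈ Set.Icc (0 : ℝ) 1) (hA : 0 < tA) (hB : 0 < tB) :
    0 < η * tA + (1 - η) * tB := by
  rcases hη.1.eq_or_lt with h | h
  · subst h
    simpa using hB
  · have := mul_nonneg (sub_nonneg.2 hη.2) hB.le
    have := mul_pos h hA
    linarith

/-- the finite-dimensional inequality at every transmissivity -/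
theorem fd_ext (H : S_FD) {n K : ℕ} {η tA tB : ℝ} (hη : η ∈ Set.Icc (0 : ℝ) 1) (hA : 0 < tA) (hB : 0 < tB)
    {ρA ρB : Matrix (Box n K) (Box n K) ℂ} (h1 : IsDensity ρA) (h2 : IsDensity ρB) :
    η * Tmp tA * (vnEntropy ρA - n * gBose tA) + (1 - η) * Tmp tB * (vnEntropy ρB - n * gBose tB)
      ≤ Tmp (η * tA + (1 - η) * tB) *
        (vnEntropy (bsOutput η ρA ρB) - n * gBose (η * tA + (1 - η) * tB)) := by
  have hne : (𝓝[Set.Ioo (0 : ℝ) 1] η).NeBot := by
    rw [← mem_closure_iff_nhdsWithin_neBot, closure_Ioo zero_ne_one]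
    exact hη
  have hm : Continuous fun x : ℝ => x * tA + (1 - x) * tB := by fun_prop
  have a1 : Continuous fun x : ℝ => x * Tmp tA * (vnEntropy ρA - n * gBose tA) +
      (1 - x) * Tmp tB * (vnEntropy ρB - n * gBose tB) := by fun_prop
  have a2 : Tendsto (fun x : ℝ => vnEntropy (bsOutput x ρA ρB)) (𝓝[Set.Ioo (0 : ℝ) 1] η)
      (𝓝 (vnEntropy (bsOutput η ρA ρB))) :=
    vn_tendsto (eventually_mem_nhdsWithin.mono fun x hx => (bsOutput_density ⟨hx.1.le, hx.2.le⟩ h1 h2).1.1)
      (bsOutput_density hη h1 h2).1.1 fun k l =>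
        ((continuous_bsOutput ρA ρB k l).tendsto η).mono_left nhdsWithin_le_nhds
  have a3 := (((continuousAt_Tmp (mix_pos hη hA hB)).tendsto.comp (hm.tendsto η)).mono_left
    (nhdsWithin_le_nhds (s := Set.Ioo (0 : ℝ) 1))).mul (a2.sub
      ((((continuous_gBose.comp hm).tendsto η).mono_left nhdsWithin_le_nhds).const_mul (n : ℝ)))
  refine le_of_tendsto_of_tendsto ((a1.tendsto η).mono_left nhdsWithin_le_nhds) a3 ?_
  exact eventually_mem_nhdsWithin.mono fun x hx => H n K x tA tB hx.1 hx.2 hA hB ρA ρB h1 h2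

theorem Tmp_mul_ge {u : ℝ} (hu : 0 < u) (x : ℝ) : -((u + 1) * |x|) ≤ Tmp u * x := by
  have h1 := mul_le_mul_of_nonneg_right (Tmp_le hu) (abs_nonneg x)
  have h2 := mul_le_mul_of_nonneg_left (neg_abs_le x) (Tmp_pos hu).le
  linarith

/-- the entropy photon-number inequality from its finite-dimensional linear form -/
theorem epni (H : S_FD) (n : ℕ) (hn : 1 ≤ n) (η : ℝ)
    (hη : η ∈ Set.Icc (0 : ℝ) 1) (ρA ρB : FockState n) (hA : FiniteEnergy ρA) (hB : FiniteEnergy ρB)
    (sA sB : ℝ) (hsA : HasEntropy ρA sA) (hsB : HasEntropy ρB sB) (tA tB : ℝ) (htA : 0 ≤ tA)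
    (htB : 0 ≤ tB) (hgA : gBose tA = sA / n) (hgB : gBose tB = sB / n) :
    ∃ ρC : FockState n, IsBeamSplitterOutput η ρA ρB ρC ∧
      ∃ sC : ℝ, HasEntropy ρC sC ∧ gBose (η * tA + (1 - η) * tB) ≤ sC / n := by
  obtain ⟨ρC, hC1, hC2, hC3⟩ := exists_out hη ρA ρB hA hB
  obtain ⟨sC, hsC⟩ := exists_ent ρC hC2
  refine ⟨ρC, hC1, sC, hsC, ?_⟩
  have hn0 : (0 : ℝ) < n := by exact_mod_cast hn
  obtain ⟨RA, hRA⟩ := trunc_energy ρA hA
  obtain ⟨RB, hRB⟩ := trunc_energy ρB hB
  obtain ⟨RC, hRC⟩ := out_trunc_bound hη ρA ρB hA hB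
  have lA := entropy_cont hA hsA (fun K => K) (fun K => trunc K ρA) RA ((trunc_density ρA).and hRA)
    (trunc_entries ρA)
  have lB := entropy_cont hB hsB (fun K => K) (fun K => trunc K ρB) RB ((trunc_density ρB).and hRB)
    (trunc_entries ρB)
  have lC := entropy_cont hC2 hsC (fun K => 2 * K) (fun K => bsOutput η (trunc K ρA) (trunc K ρB)) RC hRC hC3
  have key : ∀ uA uB : ℝ, 0 < uA → 0 < uB →
      η * Tmp uA * (sA - n * gBose uA) + (1 - η) * Tmp uB * (sB - n * gBose uB)
        ≤ Tmp (η * uA + (1 - η) * uB) * (sC - n * gBose (η * uA + (1 - η) * uB)) := fun uA uB h1 h2 => by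
    refine le_of_tendsto_of_tendsto (((lA.sub_const _).const_mul _).add ((lB.sub_const _).const_mul _))
      ((lC.sub_const _).const_mul _) ?_
    filter_upwards [trunc_density ρA, trunc_density ρB] with K h3 h4
    exact fd_ext H hη h1 h2 h3 h4
  set tC := η * tA + (1 - η) * tB with htC
  have h0 : 0 ≤ tC := add_nonneg (mul_nonneg hη.1 htA) (mul_nonneg (sub_nonneg.2 hη.2) htB)
  rcases h0.eq_or_lt with h | h
  · rw [← h]
    simpa [gBose] using div_nonneg (ent_nonneg hsC) hn0.le
  have eA : sA = n * gBose tA := by rw [hgA]; field_simp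
  have eB : sB = n * gBose tB := by rw [hgB]; field_simp
  have hg := continuous_gBose
  have a1 : Continuous fun r : ℝ => -(η * ((tA + r + 1) * |sA - n * gBose (tA + r)|)) -
      (1 - η) * ((tB + r + 1) * |sB - n * gBose (tB + r)|) := by fun_prop
  have a2 : ContinuousAt (fun r : ℝ => Tmp (tC + r) * (sC - n * gBose (tC + r))) 0 := by
    refine ContinuousAt.mul (ContinuousAt.comp_of_eq (g := Tmp) (f := fun r : ℝ => tC + r) (continuousAt_Tmp h)
      (by fun_prop) (add_zero _)) ?_
    fun_prop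
  have a3 := le_of_tendsto_of_tendsto ((a1.tendsto 0).mono_left (nhdsWithin_le_nhds (s := Set.Ioi 0)))
    (a2.tendsto.mono_left nhdsWithin_le_nhds) (eventually_mem_nhdsWithin.mono fun r hr => by
      have hr' : 0 < r := hr
      have b1 := key (tA + r) (tB + r) (by linarith) (by linarith)
      have b2 : η * (tA + r) + (1 - η) * (tB + r) = tC + r := by rw [htC]; ring
      rw [b2] at b1
      have b3 := mul_le_mul_of_nonneg_left (Tmp_mul_ge (u := tA + r) (by linarith) (sA - n * gBose (tA + r))) hη.1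
      have b4 := mul_le_mul_of_nonneg_left (Tmp_mul_ge (u := tB + r) (by linarith) (sB - n * gBose (tB + r)))
        (sub_nonneg.2 hη.2)
      simp only
      linarith)
  simp only [add_zero, ← eA, ← eB, sub_self, abs_zero, mul_zero, neg_zero] at a3
  have a4 := (mul_nonneg_iff_of_pos_left (Tmp_pos h)).1 a3
  rw [le_div_iff₀ hn0]
  linarith

end Crest.Agent.R331.Fock
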